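import Vale.Agent.H12.FamilySum

namespace Vale.Agent.Results.P043.A_AdaptedFamilyPeriodic

/-- The periodic tiling conjecture holds, in every dimension `d`, for all tiles of `ℤ^d` that are
a direct sum `F 0 ⊕ ⋯ ⊕ F (k-1)` of any number of finite sets, each of prime cardinality or
contained in a line `f₀ + ℤ w`, whose spans are simultaneously coordinatizable: there are linearly
independent vectors `b 0, …, b (m-1)` and index sets `S i` such that the rational span of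
`F i - F i` is the rational span of the `b j` with `j ∈ S i`. If such a direct sum tiles `ℤ^d` by
translations, then it has a tiling `A'` that is invariant under the full-rank lattice `N ℤ^d`. -/
theorem result (d k m : ℕ) (F : Fin k → Finset (Fin d → ℤ))
    (hF : ∀ i, (F i).card.Prime ∨ ∃ f₀ w : Fin d → ℤ, ∀ f ∈ F i, ∃ c : ℤ, f = f₀ + c • w)
    (b : Fin m → Fin d → ℤ) (S : Fin k → Set (Fin m))
    (hb : ∀ c : Fin m → ℤ, ∑ j, c j • b j = 0 → ∀ j, c j = 0)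
    (h1 : ∀ i, ∀ f ∈ F i, ∀ f' ∈ F i, ∃ (n : ℕ) (c : Fin m → ℤ), 0 < n ∧
      (∀ j, j ∉ S i → c j = 0) ∧ n • (f - f') = ∑ j, c j • b j)
    (h2 : ∀ i, ∀ j ∈ S i, ∃ n : ℕ, 0 < n ∧
      n • b j ∈ AddSubgroup.closure {x : Fin d → ℤ | ∃ f ∈ F i, ∃ f' ∈ F i, x = f - f'})
    (A : Set (Fin d → ℤ))
    (hA : ∀ g : Fin d → ℤ, ∃! q : (Fin d → ℤ) × (Fin k → Fin d → ℤ),
      q.1 ∈ A ∧ (∀ i, q.2 i ∈ F i) ∧ q.1 + ∑ i, q.2 i = g) :
    ∃ (A' : Set (Fin d → ℤ)) (N : ℕ), 0 < N ∧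
      (∀ g : Fin d → ℤ, ∃! q : (Fin d → ℤ) × (Fin k → Fin d → ℤ),
        q.1 ∈ A' ∧ (∀ i, q.2 i ∈ F i) ∧ q.1 + ∑ i, q.2 i = g) ∧
      ∀ a ∈ A', ∀ v : Fin d → ℤ, a + N • v ∈ A' :=
  Vale.Agent.H12.PrimeSum.prime_or_line_family_periodic
    (fun _ _ h => smul_eq_zero.mp h) F hF b S hb h1 h2 A hA

end Vale.Agent.Results.P043.A_AdaptedFamilyPeriodic
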