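import Vale.Agent.H12.LoopDim3
import Vale.Agent.H77.Lines.Main

/-!
# P043 (periodic tiling conjecture, discrete form): four classes of direct-sum tiles at once

The tile is a direct sum `F 0 ⊕ ⋯ ⊕ F (k-1)` of finite subsets of `ℤ^d`.  A *line* is a set
`f₀ + ℤ w`.  The family `F` is assumed to satisfy one of the following four conditions.

* (a) Every `F i` has prime cardinality or lies on a line, and the spans are simultaneously
  coordinatizable: there are vectors `b 0, …, b (m-1)`, linearly independent over `ℤ`, and index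
  sets `S i` such that `F i - F i` and `{b j : j ∈ S i}` have the same rational span.
* (b) Every `F i` has prime cardinality and spans a subgroup of corank at most one: there is an
  additive map `t i : ℤ^d → ℤ` (possibly zero), constant on `F i`, such that the subgroup generated
  by `F i - F i` contains `N • x` for every `x` with `t i x = 0`, for some `N > 0`.
* (c) Every `F i` has prime cardinality and lies on a line (the directions are arbitrary), and
  no prime `q` is the cardinality of more than `q` of the sets.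
* (d) `d = 3`, every `F i` has prime cardinality and no `F i` lies on a line.

If `A ⊕ F 0 ⊕ ⋯ ⊕ F (k-1) = ℤ^d` (every `g` has exactly one representation
`g = a + f_0 + ⋯ + f_(k-1)` with `a ∈ A`, `f_i ∈ F i`), then there is a tiling `A'` by the same
tile that is invariant under the full-rank lattice `N ℤ^d`.

This is the conjunction of the four single statements of this folder (A_AdaptedFamilyPeriodic,
A_HyperplaneFamilyPeriodic, A_LinesFamilyPeriodic, A_DimThreeNonCollinear); the proof only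
dispatches to their proofs (H12/FamilySum, H12/LoopSum, H77/Lines, H12/LoopDim3).
-/

namespace Vale.Agent.Results.P043.A_CombinedClasses

theorem result (d k : ℕ) (F : Fin k → Finset (Fin d → ℤ))
    (hclass :
      ((∀ i, (F i).card.Prime ∨ ∃ f₀ w : Fin d → ℤ, ∀ f ∈ F i, ∃ c : ℤ, f = f₀ + c • w) ∧
        ∃ (m : ℕ) (b : Fin m → Fin d → ℤ) (S : Fin k → Set (Fin m)),
          (∀ c : Fin m → ℤ, ∑ j, c j • b j = 0 → ∀ j, c j = 0) ∧
          (∀ i, ∀ f ∈ F i, ∀ f' ∈ F i, ∃ (n : ℕ) (c : Fin m → ℤ), 0 < n ∧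
            (∀ j, j ∉ S i → c j = 0) ∧ n • (f - f') = ∑ j, c j • b j) ∧
          (∀ i, ∀ j ∈ S i, ∃ n : ℕ, 0 < n ∧
            n • b j ∈ AddSubgroup.closure {x : Fin d → ℤ | ∃ f ∈ F i, ∃ f' ∈ F i, x = f - f'})) ∨
      ((∀ i, (F i).card.Prime) ∧
        ∃ t : Fin k → (Fin d → ℤ) →+ ℤ,
          (∀ i, ∀ f ∈ F i, ∀ f' ∈ F i, t i f = t i f') ∧
          (∀ i, ∃ N : ℕ, 0 < N ∧ ∀ x : Fin d → ℤ, t i x = 0 →
            N • x ∈ AddSubgroup.closure {y : Fin d → ℤ | ∃ f ∈ F i, ∃ f' ∈ F i, y = f - f'})) ∨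
      ((∀ i, (F i).card.Prime) ∧
        (∀ i, ∃ f₀ w : Fin d → ℤ, ∀ f ∈ F i, ∃ c : ℤ, f = f₀ + c • w) ∧
        ∀ q : ℕ, (Finset.univ.filter (fun i => (F i).card = q)).card ≤ q) ∨
      (d = 3 ∧ (∀ i, (F i).card.Prime) ∧
        ∀ i, ¬ ∃ f₀ w : Fin d → ℤ, ∀ f ∈ F i, ∃ c : ℤ, f = f₀ + c • w))
    (A : Set (Fin d → ℤ))
    (hA : ∀ g : Fin d → ℤ, ∃! q : (Fin d → ℤ) × (Fin k → Fin d → ℤ),
      q.1 ∈ A ∧ (∀ i, q.2 i ∈ F i) ∧ q.1 + ∑ i, q.2 i = g) :
    ∃ (A' : Set (Fin d → ℤ)) (N : ℕ), 0 < N ∧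
      (∀ g : Fin d → ℤ, ∃! q : (Fin d → ℤ) × (Fin k → Fin d → ℤ),
        q.1 ∈ A' ∧ (∀ i, q.2 i ∈ F i) ∧ q.1 + ∑ i, q.2 i = g) ∧
      ∀ a ∈ A', ∀ v : Fin d → ℤ, a + N • v ∈ A' := by
  rcases hclass with ⟨hF, m, b, S, hb, h1, h2⟩ | ⟨hF, t, h1, h2⟩ | ⟨hp, hl, hmult⟩ |
    ⟨rfl, hF, hline⟩
  · exact Vale.Agent.H12.PrimeSum.prime_or_line_family_periodic
      (fun _ _ h => smul_eq_zero.mp h) F hF b S hb h1 h2 A hA
  · exact Vale.Agent.H12.PrimeSum.prime_hyperplane_family_periodic F hF t h1 h2 A hA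
  · exact Vale.Agent.H77.Lines.lines_periodic (fun _ _ h => smul_eq_zero.mp h) F hp hl hmult A hA
  · exact Vale.Agent.H12.PrimeSum.dim3_noncollinear_periodic F hF hline A hA

end Vale.Agent.Results.P043.A_CombinedClasses
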