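import Vale.Agent.H12.LoopDim3
import Vale.Agent.H77.Lines.Main

/-!
# P043 (periodic tiling conjecture, discrete form): four theorems on direct-sum tiles in one statement

The tile is a direct sum `F 0 ⊕ ⋯ ⊕ F (k-1)` of finite subsets of `ℤ^d`; `A ⊕ F 0 ⊕ ⋯ ⊕ F (k-1) = ℤ^d`
means that every `g` has exactly one representation `g = a + f_0 + ⋯ + f_(k-1)` with `a ∈ A`,
`f_i ∈ F i`.  A *line* is a set `f₀ + ℤ w`.  The statement is the conjunction of four implications,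
each of the form: if the family `F` satisfies the condition and some `A` tiles with it, then some
`A'` tiles with it and is invariant under the full-rank lattice `N ℤ^d`.

1. Every `F i` has prime cardinality or lies on a line, and there are vectors `b 0, …, b (m-1)`,
   linearly independent over `ℤ`, and index sets `S i` such that `F i - F i` and
   `{b j : j ∈ S i}` have the same rational span.
2. Every `F i` has prime cardinality, and there is an additive map `t i : ℤ^d → ℤ` (possibly zero),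
   constant on `F i`, such that the subgroup generated by `F i - F i` contains `N • x` for every `x`
   with `t i x = 0`, for some `N > 0`.
3. Every `F i` has prime cardinality and lies on a line (arbitrary directions), and no prime `q`
   is the cardinality of more than `q` of the sets.
4. `d = 3`, every `F i` has prime cardinality and no `F i` lies on a line.

The four conjuncts are the statements of the hand-ins A_AdaptedFamilyPeriodic,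
A_HyperplaneFamilyPeriodic, A_LinesFamilyPeriodic and A_DimThreeNonCollinear of this folder, with
their hypotheses written as implications; the proof only quotes their proofs.
-/

namespace Vale.Agent.Results.P043.A_CombinedFourTheorems

theorem result :
    (∀ (d k m : ℕ) (F : Fin k → Finset (Fin d → ℤ)),
      (∀ i, (F i).card.Prime ∨ ∃ f₀ w : Fin d → ℤ, ∀ f ∈ F i, ∃ c : ℤ, f = f₀ + c • w) →
      ∀ (b : Fin m → Fin d → ℤ) (S : Fin k → Set (Fin m)),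
      (∀ c : Fin m → ℤ, ∑ j, c j • b j = 0 → ∀ j, c j = 0) →
      (∀ i, ∀ f ∈ F i, ∀ f' ∈ F i, ∃ (n : ℕ) (c : Fin m → ℤ), 0 < n ∧
        (∀ j, j ∉ S i → c j = 0) ∧ n • (f - f') = ∑ j, c j • b j) →
      (∀ i, ∀ j ∈ S i, ∃ n : ℕ, 0 < n ∧
        n • b j ∈ AddSubgroup.closure {x : Fin d → ℤ | ∃ f ∈ F i, ∃ f' ∈ F i, x = f - f'}) →
      ∀ A : Set (Fin d → ℤ),
      (∀ g : Fin d → ℤ, ∃! q : (Fin d → ℤ) × (Fin k → Fin d → ℤ),
        q.1 ∈ A ∧ (∀ i, q.2 i ∈ F i) ∧ q.1 + ∑ i, q.2 i = g) →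
      ∃ (A' : Set (Fin d → ℤ)) (N : ℕ), 0 < N ∧
        (∀ g : Fin d → ℤ, ∃! q : (Fin d → ℤ) × (Fin k → Fin d → ℤ),
          q.1 ∈ A' ∧ (∀ i, q.2 i ∈ F i) ∧ q.1 + ∑ i, q.2 i = g) ∧
        ∀ a ∈ A', ∀ v : Fin d → ℤ, a + N • v ∈ A') ∧
    (∀ (d k : ℕ) (F : Fin k → Finset (Fin d → ℤ)),
      (∀ i, (F i).card.Prime) →
      ∀ t : Fin k → (Fin d → ℤ) →+ ℤ,
      (∀ i, ∀ f ∈ F i, ∀ f' ∈ F i, t i f = t i f') →
      (∀ i, ∃ N : ℕ, 0 < N ∧ ∀ x : Fin d → ℤ, t i x = 0 →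
        N • x ∈ AddSubgroup.closure {y : Fin d → ℤ | ∃ f ∈ F i, ∃ f' ∈ F i, y = f - f'}) →
      ∀ A : Set (Fin d → ℤ),
      (∀ g : Fin d → ℤ, ∃! q : (Fin d → ℤ) × (Fin k → Fin d → ℤ),
        q.1 ∈ A ∧ (∀ i, q.2 i ∈ F i) ∧ q.1 + ∑ i, q.2 i = g) →
      ∃ (A' : Set (Fin d → ℤ)) (N : ℕ), 0 < N ∧
        (∀ g : Fin d → ℤ, ∃! q : (Fin d → ℤ) × (Fin k → Fin d → ℤ),
          q.1 ∈ A' ∧ (∀ i, q.2 i ∈ F i) ∧ q.1 + ∑ i, q.2 i = g) ∧
        ∀ a ∈ A', ∀ v : Fin d → ℤ, a + N • v ∈ A') ∧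
    (∀ (d k : ℕ) (F : Fin k → Finset (Fin d → ℤ)),
      (∀ i, (F i).card.Prime) →
      (∀ i, ∃ f₀ w : Fin d → ℤ, ∀ f ∈ F i, ∃ c : ℤ, f = f₀ + c • w) →
      (∀ q : ℕ, (Finset.univ.filter (fun i => (F i).card = q)).card ≤ q) →
      ∀ A : Set (Fin d → ℤ),
      (∀ g : Fin d → ℤ, ∃! q : (Fin d → ℤ) × (Fin k → Fin d → ℤ),
        q.1 ∈ A ∧ (∀ i, q.2 i ∈ F i) ∧ q.1 + ∑ i, q.2 i = g) →
      ∃ (A' : Set (Fin d → ℤ)) (N : ℕ), 0 < N ∧
        (∀ g : Fin d → ℤ, ∃! q : (Fin d → ℤ) × (Fin k → Fin d → ℤ),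
          q.1 ∈ A' ∧ (∀ i, q.2 i ∈ F i) ∧ q.1 + ∑ i, q.2 i = g) ∧
        ∀ a ∈ A', ∀ v : Fin d → ℤ, a + N • v ∈ A') ∧
    (∀ (k : ℕ) (F : Fin k → Finset (Fin 3 → ℤ)),
      (∀ i, (F i).card.Prime) →
      (∀ i, ¬ ∃ f₀ w : Fin 3 → ℤ, ∀ f ∈ F i, ∃ c : ℤ, f = f₀ + c • w) →
      ∀ A : Set (Fin 3 → ℤ),
      (∀ g : Fin 3 → ℤ, ∃! q : (Fin 3 → ℤ) × (Fin k → Fin 3 → ℤ),
        q.1 ∈ A ∧ (∀ i, q.2 i ∈ F i) ∧ q.1 + ∑ i, q.2 i = g) →
      ∃ (A' : Set (Fin 3 → ℤ)) (N : ℕ), 0 < N ∧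
        (∀ g : Fin 3 → ℤ, ∃! q : (Fin 3 → ℤ) × (Fin k → Fin 3 → ℤ),
          q.1 ∈ A' ∧ (∀ i, q.2 i ∈ F i) ∧ q.1 + ∑ i, q.2 i = g) ∧
        ∀ a ∈ A', ∀ v : Fin 3 → ℤ, a + N • v ∈ A') :=
  ⟨fun _ _ _ F hF b S hb h1 h2 A hA =>
      Vale.Agent.H12.PrimeSum.prime_or_line_family_periodic
        (fun _ _ h => smul_eq_zero.mp h) F hF b S hb h1 h2 A hA,
    fun _ _ F hF t h1 h2 A hA =>
      Vale.Agent.H12.PrimeSum.prime_hyperplane_family_periodic F hF t h1 h2 A hA,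
    fun _ _ F hp hl hmult A hA =>
      Vale.Agent.H77.Lines.lines_periodic (fun _ _ h => smul_eq_zero.mp h) F hp hl hmult A hA,
    fun _ F hF hline A hA =>
      Vale.Agent.H12.PrimeSum.dim3_noncollinear_periodic F hF hline A hA⟩

end Vale.Agent.Results.P043.A_CombinedFourTheorems
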