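import Vale.Agent.H12.LoopDim3

namespace Vale.Agent.Results.P043.A_DimThreeNonCollinear

/-- The periodic tiling conjecture holds in `ℤ^3` for all tiles that are a direct sum
`F 0 ⊕ ⋯ ⊕ F (k-1)` of any number of finite sets of prime cardinality, none of which is
contained in a line `f₀ + ℤ w`. If such a direct sum tiles `ℤ^3` by translations (every `g` has a
unique representation `g = a + f_0 + ⋯ + f_(k-1)` with `a ∈ A`, `f_i ∈ F i`), then it has a tiling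
`A'` that is invariant under the full-rank lattice `N ℤ^3`. -/
theorem result (k : ℕ) (F : Fin k → Finset (Fin 3 → ℤ))
    (hF : ∀ i, (F i).card.Prime)
    (hline : ∀ i, ¬ ∃ f₀ w : Fin 3 → ℤ, ∀ f ∈ F i, ∃ c : ℤ, f = f₀ + c • w)
    (A : Set (Fin 3 → ℤ))
    (hA : ∀ g : Fin 3 → ℤ, ∃! q : (Fin 3 → ℤ) × (Fin k → Fin 3 → ℤ),
      q.1 ∈ A ∧ (∀ i, q.2 i ∈ F i) ∧ q.1 + ∑ i, q.2 i = g) :
    ∃ (A' : Set (Fin 3 → ℤ)) (N : ℕ), 0 < N ∧
      (∀ g : Fin 3 → ℤ, ∃! q : (Fin 3 → ℤ) × (Fin k → Fin 3 → ℤ),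
        q.1 ∈ A' ∧ (∀ i, q.2 i ∈ F i) ∧ q.1 + ∑ i, q.2 i = g) ∧
      ∀ a ∈ A', ∀ v : Fin 3 → ℤ, a + N • v ∈ A' :=
  Vale.Agent.H12.PrimeSum.dim3_noncollinear_periodic F hF hline A hA

end Vale.Agent.Results.P043.A_DimThreeNonCollinear
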