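import Vale.Agent.H12.LoopSum

namespace Vale.Agent.Results.P043.A_HyperplaneFamilyPeriodic

/-- The periodic tiling conjecture holds, in every dimension `d`, for all tiles of `ℤ^d` that are
a direct sum `F 0 ⊕ ⋯ ⊕ F (k-1)` of any number of finite sets of prime cardinality, each of which
spans a subgroup of corank at most one: there is an integer linear functional `t i` (possibly
zero) that is constant on `F i` and such that the subgroup generated by `F i - F i` contains
`N • ker (t i)` for some `N > 0`. No condition relates the hyperplanes `ker (t i)` of different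
summands. If such a direct sum tiles `ℤ^d` by translations, then it has a tiling `A'` that is
invariant under the full-rank lattice `N ℤ^d`. -/
theorem result (d k : ℕ) (F : Fin k → Finset (Fin d → ℤ))
    (hF : ∀ i, (F i).card.Prime)
    (t : Fin k → (Fin d → ℤ) →+ ℤ)
    (h1 : ∀ i, ∀ f ∈ F i, ∀ f' ∈ F i, t i f = t i f')
    (h2 : ∀ i, ∃ N : ℕ, 0 < N ∧ ∀ x : Fin d → ℤ, t i x = 0 →
      N • x ∈ AddSubgroup.closure {y : Fin d → ℤ | ∃ f ∈ F i, ∃ f' ∈ F i, y = f - f'})
    (A : Set (Fin d → ℤ))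
    (hA : ∀ g : Fin d → ℤ, ∃! q : (Fin d → ℤ) × (Fin k → Fin d → ℤ),
      q.1 ∈ A ∧ (∀ i, q.2 i ∈ F i) ∧ q.1 + ∑ i, q.2 i = g) :
    ∃ (A' : Set (Fin d → ℤ)) (N : ℕ), 0 < N ∧
      (∀ g : Fin d → ℤ, ∃! q : (Fin d → ℤ) × (Fin k → Fin d → ℤ),
        q.1 ∈ A' ∧ (∀ i, q.2 i ∈ F i) ∧ q.1 + ∑ i, q.2 i = g) ∧
      ∀ a ∈ A', ∀ v : Fin d → ℤ, a + N • v ∈ A' :=
  Vale.Agent.H12.PrimeSum.prime_hyperplane_family_periodic F hF t h1 h2 A hA

end Vale.Agent.Results.P043.A_HyperplaneFamilyPeriodic
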