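import Vale.Agent.H77.Lines.Main

namespace Vale.Agent.Results.P043.A_LinesFamilyPeriodic

/-- The periodic tiling conjecture holds, in every dimension `d`, for all tiles of `ℤ^d` that are
a direct sum `F 0 ⊕ ⋯ ⊕ F (k-1)` of any number of finite sets of prime cardinality, each contained
in a line `f₀ + ℤ w`, the lines having arbitrary directions (no condition on their mutual
position), provided that no prime `q` is the cardinality of more than `q` of the sets. If such a
direct sum tiles `ℤ^d` by translations, then it has a tiling `A'` that is invariant under the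
full-rank lattice `N ℤ^d`. -/
theorem result (d k : ℕ) (F : Fin k → Finset (Fin d → ℤ))
    (hp : ∀ i, (F i).card.Prime)
    (hl : ∀ i, ∃ f₀ w : Fin d → ℤ, ∀ f ∈ F i, ∃ c : ℤ, f = f₀ + c • w)
    (hmult : ∀ q : ℕ, (Finset.univ.filter (fun i => (F i).card = q)).card ≤ q)
    (A : Set (Fin d → ℤ))
    (hA : ∀ g : Fin d → ℤ, ∃! q : (Fin d → ℤ) × (Fin k → Fin d → ℤ),
      q.1 ∈ A ∧ (∀ i, q.2 i ∈ F i) ∧ q.1 + ∑ i, q.2 i = g) :
    ∃ (A' : Set (Fin d → ℤ)) (N : ℕ), 0 < N ∧
      (∀ g : Fin d → ℤ, ∃! q : (Fin d → ℤ) × (Fin k → Fin d → ℤ),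
        q.1 ∈ A' ∧ (∀ i, q.2 i ∈ F i) ∧ q.1 + ∑ i, q.2 i = g) ∧
      ∀ a ∈ A', ∀ v : Fin d → ℤ, a + N • v ∈ A' :=
  Vale.Agent.H77.Lines.lines_periodic (fun _ _ h => smul_eq_zero.mp h) F hp hl hmult A hA

end Vale.Agent.Results.P043.A_LinesFamilyPeriodic
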